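import Vale.Agent.P327.Regular

open Vale.Agent.P327 in
/-- Let `T` be a bijection of the space of subsets of `ℕ`, additive for pointwise xor, whose
coordinate sets have the property of Baire (for instance `T` continuous or Borel). If
`A ≤_T B ↔ T A ≤_T T B` for all `A`, `B`, then `T A ≡_T A` for every `A`. -/
theorem Vale.Agent.Results.P327.AdditiveBaire.result
    (T : (ℕ → Bool) → (ℕ → Bool)) (hbij : Function.Bijective T)
    (hB : ∀ n, BaireMeasurableSet {A : ℕ → Bool | T A n = true})
    (hadd : ∀ A B : ℕ → Bool, T (fun n => xor (A n) (B n)) = fun n => xor (T A n) (T B n))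
    (haut : ∀ A B : ℕ → Bool, TuringReducible (chi A) (chi B) ↔
      TuringReducible (chi (T A)) (chi (T B)))
    (A : ℕ → Bool) :
    TuringEquivalent (chi (T A)) (chi A) :=
  main_theorem hbij hB hadd haut A
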